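import Vale.Agent.P240.R2.H986.X.Stm
import Mathlib.Data.Nat.Totient

/-!
Literal statement: few automorphisms if the determinant of the Cartan matrix is small.
-/

set_option autoImplicit false

namespace Vale.Agent.P240.R2.H986.X

open Subgroup Vale.Agent.P240.H195

universe u

open scoped Classical in
/-- **X4d** (`p` divides neither the determinant `d` of the Cartan matrix nor `φ(d)`, and there are no
automorphisms of the diagram of `p`-power order): few automorphisms. -/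
def StmtX4d : Prop := ∀ (ι : Type) [Finite ι] (F : Type) [Field F] [Finite F] (L : Type u) [Group L]
  [Finite L] (r : ℕ) [Fact r.Prime] [CharP F r] (C : RC ι) (x : ι → F → L), CS C x →
  IsSimpleGroup L → (∀ g : L, (∀ y, g * y = y * g) → g = 1) →
  ∀ p : ℕ, p.Prime → p ≠ r →
  -- the determinant of the Cartan matrix is `d`
  (∃ d : ℕ, ¬ p ∣ d ∧ ¬ p ∣ d.totient ∧ ∃ D : ι → ι → ℤ, ∃ Δ : Finset ι,
    (∀ i, i ∈ Δ ↔ C.simp i) ∧
    ∀ i j, C.simp i → C.simp j → ∑ k ∈ Δ, D i k * C.pr j k = if i = j then (d : ℤ) else 0) →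
  -- permutations of the diagram
  (∀ π : Equiv.Perm {i // C.simp i}, (∃ k, π ^ p ^ k = 1) →
    (∀ i j, C.pr i.1 j.1 = 0 ↔ C.pr (π i).1 (π j).1 = 0) →
    ((r = 2 ∨ r = 3) ∨ ∀ i j, C.pr i.1 j.1 = C.pr (π i).1 (π j).1) → π = 1) →
  FewAut p L

theorem StmtX4d.X4 (h : StmtX4d.{u}) : StmtX4.{u} := by
  classical
  intro ι _ F _ _ L _ _ r _ _ C x hx hs hZ hD p hp hpr hπ
  obtain ⟨D, Δ, h1, h2⟩ := hD
  refine h ι F L r C x hx hs hZ p hp hpr ⟨1, ?_, ?_, D, Δ, h1, ?_⟩ hπ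
  · exact hp.one_lt.ne' ∘ Nat.dvd_one.1
  · rw [Nat.totient_one]
    exact hp.one_lt.ne' ∘ Nat.dvd_one.1
  · intro i j hi hj
    rw [h2 i j hi hj]
    simp

end Vale.Agent.P240.R2.H986.X
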