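import Mathlib.LinearAlgebra.Matrix.Cartan
import Mathlib.LinearAlgebra.Matrix.Adjugate
import Mathlib.GroupTheory.OrderOfElement

/-!
The Cartan matrices of type `E₆`, `E₇`, `E₈`, `F₄` and `G₂`: inverses, the diagrams are connected,
and permutations of the diagrams.
-/

set_option autoImplicit false

namespace Vale.Agent.P240.R2.H165.XC

open CartanMatrix

/-- the permutation `π` preserves the zeros of `A` -/
def ZP {α : Type*} (A : Matrix α α ℤ) (π : Equiv.Perm α) : Prop :=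
  ∀ i j, A i j = 0 ↔ A (π i) (π j) = 0

/-- the permutation `π` preserves the entries of `A` -/
def LP {α : Type*} (A : Matrix α α ℤ) (π : Equiv.Perm α) : Prop :=
  ∀ i j, A i j = A (π i) (π j)

/-- the diagram of `A` is connected -/
def Conn {α : Type*} (A : Matrix α α ℤ) : Prop :=
  ∀ p : α → Prop, (∃ i, p i) → (∀ i j, p i → A j i ≠ 0 → p j) → ∀ j, p j

/-- permutations of `p`-power order that preserve the zeros, and also the entries if `q` holds, are
trivial -/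
def NoPerm {α : Type*} (A : Matrix α α ℤ) (p : ℕ) (q : Prop) : Prop :=
  ∀ π : Equiv.Perm α, (∃ k, π ^ p ^ k = 1) → ZP A π → (q → LP A π) → π = 1

/-- transport of `Conn` -/
lemma Conn.transport {α β : Type*} {A : Matrix α α ℤ} {B : Matrix β β ℤ} (e : β ≃ α)
    (h : ∀ i j, B i j = A (e i) (e j)) (hA : Conn A) : Conn B := by
  intro p hp hs j
  obtain ⟨i, hi⟩ := hp
  have h1 := hA (fun a => p (e.symm a)) ⟨e i, by simpa using hi⟩ (fun a b ha hab => by
    refine hs _ _ ha ?_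
    rw [h, e.apply_symm_apply, e.apply_symm_apply]
    exact hab) (e j)
  simpa using h1

/-- transport of `NoPerm` -/
lemma NoPerm.transport {α β : Type*} {A : Matrix α α ℤ} {B : Matrix β β ℤ} (e : β ≃ α)
    (h : ∀ i j, B i j = A (e i) (e j)) {p : ℕ} {q : Prop} (hA : NoPerm A p q) : NoPerm B p q := by
  intro π hk hz hl
  have h2 := hA (e.permCongr π) ?_ ?_ ?_
  · ext i
    have h3 := Equiv.congr_fun h2 (e i)
    rw [Equiv.permCongr_apply, e.symm_apply_apply] at h3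
    exact e.injective h3
  · obtain ⟨k, hk⟩ := hk
    refine ⟨k, ?_⟩
    have : ∀ m : ℕ, (e.permCongr π) ^ m = e.permCongr (π ^ m) := by
      intro m
      induction m with
      | zero => ext i; simp
      | succ m ih => rw [pow_succ, pow_succ, ih]; ext i; simp
    rw [this, hk]
    ext i
    simp
  · intro a b
    have h3 := hz (e.symm a) (e.symm b)
    rw [h, h, e.apply_symm_apply, e.apply_symm_apply] at h3
    simpa [Equiv.permCongr_apply] using h3
  · intro hq a b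
    have h3 := hl hq (e.symm a) (e.symm b)
    rw [h, h, e.apply_symm_apply, e.apply_symm_apply] at h3
    simpa [Equiv.permCongr_apply] using h3

/-- refinement of colours -/
def col {n : ℕ} (A : Matrix (Fin n) (Fin n) ℤ) (c : Fin n → ℤ) (i : Fin n) : ℤ :=
  ∑ j, if A i j = 0 then 0 else c j * c j

lemma col_inv {n : ℕ} {A : Matrix (Fin n) (Fin n) ℤ} {π : Equiv.Perm (Fin n)} (h : ZP A π)
    {c : Fin n → ℤ} (hc : ∀ i, c (π i) = c i) (i : Fin n) : col A c (π i) = col A c i := by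
  unfold col
  rw [← Equiv.sum_comp π]
  refine Finset.sum_congr rfl fun j _ => ?_
  rw [hc j]
  by_cases h1 : A i j = 0
  · rw [if_pos h1, if_pos ((h i j).1 h1)]
  · rw [if_neg h1, if_neg fun h2 => h1 ((h i j).2 h2)]

lemma eq_one_of_inj {n : ℕ} {π : Equiv.Perm (Fin n)} {c : Fin n → ℤ}
    (hc : ∀ i, c (π i) = c i) (hi : ∀ i j, c i = c j → i = j) : π = 1 := by
  ext i
  rw [hi _ _ (hc i)]
  rfl

lemma eq_one_of_sq {α : Type*} {π : Equiv.Perm α} (h : π * π = 1) {p k : ℕ} (hp : p.Prime)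
    (hp2 : p ≠ 2) (hk : π ^ p ^ k = 1) : π = 1 := by
  have h1 : orderOf π ∣ 2 := orderOf_dvd_of_pow_eq_one (by rw [pow_two, h])
  have h2 : orderOf π ∣ p ^ k := orderOf_dvd_of_pow_eq_one hk
  have h3 : Nat.Coprime 2 (p ^ k) :=
    Nat.Coprime.pow_right _ ((Nat.coprime_primes Nat.prime_two hp).2 (Ne.symm hp2))
  exact orderOf_eq_one_iff.1 (Nat.eq_one_of_dvd_coprimes h3 h1 h2)

lemma sq_of_classes {n : ℕ} {π : Equiv.Perm (Fin n)} {c : Fin n → ℤ}
    (hc : ∀ i, c (π i) = c i) (hi : ∀ i j k, c i = c j → c j = c k → i = j ∨ j = k ∨ i = k) :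
    π * π = 1 := by
  ext i
  rw [Equiv.Perm.mul_apply, Equiv.Perm.one_apply]
  rcases hi i (π i) (π (π i)) (hc i).symm (hc (π i)).symm with h | h | h
  · rw [← h, ← h]
  · rw [← h, ← π.injective h]
  · rw [← h]

/-! ### `E₆` -/

lemma E6_c1 : col E₆ (fun _ => 1) = ![2, 2, 3, 4, 3, 2] := by
  decide

lemma E6_c2 : col E₆ ![2, 2, 3, 4, 3, 2] = ![13, 20, 29, 38, 29, 13] := by
  decide

lemma E6_cl : ∀ i j k : Fin 6, (![13, 20, 29, 38, 29, 13] : Fin 6 → ℤ) i =
    (![13, 20, 29, 38, 29, 13] : Fin 6 → ℤ) j → (![13, 20, 29, 38, 29, 13] : Fin 6 → ℤ) j =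
    (![13, 20, 29, 38, 29, 13] : Fin 6 → ℤ) k → i = j ∨ j = k ∨ i = k := by
  decide

theorem E6_sq {π : Equiv.Perm (Fin 6)} (h : ZP E₆ π) : π * π = 1 := by
  have h1 := col_inv h (c := fun _ => 1) (fun _ => rfl)
  rw [E6_c1] at h1
  have h2 := col_inv h h1
  rw [E6_c2] at h2
  exact sq_of_classes h2 E6_cl

theorem E6_noPerm {p : ℕ} (hp : p.Prime) (hp2 : p ≠ 2) (q : Prop) : NoPerm E₆ p q :=
  fun _ ⟨_, hk⟩ hz _ => eq_one_of_sq (E6_sq hz) hp hp2 hk

theorem E6_conn : Conn E₆ := by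
  intro p ⟨i, hi⟩ h
  have h3 : p 3 := by
    have a0 : p 0 → p 2 := fun hp => h _ _ hp (by decide)
    have a1 : p 1 → p 3 := fun hp => h _ _ hp (by decide)
    have a2 : p 2 → p 3 := fun hp => h _ _ hp (by decide)
    have a4 : p 4 → p 3 := fun hp => h _ _ hp (by decide)
    have a5 : p 5 → p 4 := fun hp => h _ _ hp (by decide)
    fin_cases i
    · exact a2 (a0 hi)
    · exact a1 hi
    · exact a2 hi
    · exact hi
    · exact a4 hi
    · exact a4 (a5 hi)
  have b1 : p 1 := h _ _ h3 (by decide)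
  have b2 : p 2 := h _ _ h3 (by decide)
  have b0 : p 0 := h _ _ b2 (by decide)
  have b4 : p 4 := h _ _ h3 (by decide)
  have b5 : p 5 := h _ _ b4 (by decide)
  intro j
  fin_cases j
  exacts [b0, b1, b2, h3, b4, b5]

/-! ### `E₇` -/

lemma E7_c1 : col E₇ (fun _ => 1) = ![2, 2, 3, 4, 3, 3, 2] := by
  decide

lemma E7_c2 : col E₇ ![2, 2, 3, 4, 3, 3, 2] = ![13, 20, 29, 38, 34, 22, 13] := by
  decide

lemma E7_c3 : col E₇ ![13, 20, 29, 38, 34, 22, 13] =
    ![1010, 1844, 2454, 3841, 3084, 1809, 653] := by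
  decide

lemma E7_inj : ∀ i j : Fin 7, (![1010, 1844, 2454, 3841, 3084, 1809, 653] : Fin 7 → ℤ) i =
    (![1010, 1844, 2454, 3841, 3084, 1809, 653] : Fin 7 → ℤ) j → i = j := by
  decide

theorem E7_perm {π : Equiv.Perm (Fin 7)} (h : ZP E₇ π) : π = 1 := by
  have h1 := col_inv h (c := fun _ => 1) (fun _ => rfl)
  rw [E7_c1] at h1
  have h2 := col_inv h h1
  rw [E7_c2] at h2
  have h3 := col_inv h h2
  rw [E7_c3] at h3
  exact eq_one_of_inj h3 E7_inj

theorem E7_noPerm (p : ℕ) (q : Prop) : NoPerm E₇ p q := fun _ _ h _ => E7_perm h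

theorem E7_conn : Conn E₇ := by
  intro p ⟨i, hi⟩ h
  have h3 : p 3 := by
    have a0 : p 0 → p 2 := fun hp => h _ _ hp (by decide)
    have a1 : p 1 → p 3 := fun hp => h _ _ hp (by decide)
    have a2 : p 2 → p 3 := fun hp => h _ _ hp (by decide)
    have a4 : p 4 → p 3 := fun hp => h _ _ hp (by decide)
    have a5 : p 5 → p 4 := fun hp => h _ _ hp (by decide)
    have a6 : p 6 → p 5 := fun hp => h _ _ hp (by decide)
    fin_cases i
    · exact a2 (a0 hi)
    · exact a1 hi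
    · exact a2 hi
    · exact hi
    · exact a4 hi
    · exact a4 (a5 hi)
    · exact a4 (a5 (a6 hi))
  have b1 : p 1 := h _ _ h3 (by decide)
  have b2 : p 2 := h _ _ h3 (by decide)
  have b0 : p 0 := h _ _ b2 (by decide)
  have b4 : p 4 := h _ _ h3 (by decide)
  have b5 : p 5 := h _ _ b4 (by decide)
  have b6 : p 6 := h _ _ b5 (by decide)
  intro j
  fin_cases j
  exacts [b0, b1, b2, h3, b4, b5, b6]

/-! ### `E₈` -/

lemma E8_c1 : col E₈ (fun _ => 1) = ![2, 2, 3, 4, 3, 3, 3, 2] := by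
  decide

lemma E8_c2 : col E₈ ![2, 2, 3, 4, 3, 3, 3, 2] = ![13, 20, 29, 38, 34, 27, 22, 13] := by
  decide

lemma E8_c3 : col E₈ ![13, 20, 29, 38, 34, 27, 22, 13] =
    ![1010, 1844, 2454, 3841, 3329, 2369, 1382, 653] := by
  decide

lemma E8_inj : ∀ i j : Fin 8, (![1010, 1844, 2454, 3841, 3329, 2369, 1382, 653] : Fin 8 → ℤ) i =
    (![1010, 1844, 2454, 3841, 3329, 2369, 1382, 653] : Fin 8 → ℤ) j → i = j := by
  decide

theorem E8_perm {π : Equiv.Perm (Fin 8)} (h : ZP E₈ π) : π = 1 := by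
  have h1 := col_inv h (c := fun _ => 1) (fun _ => rfl)
  rw [E8_c1] at h1
  have h2 := col_inv h h1
  rw [E8_c2] at h2
  have h3 := col_inv h h2
  rw [E8_c3] at h3
  exact eq_one_of_inj h3 E8_inj

theorem E8_noPerm (p : ℕ) (q : Prop) : NoPerm E₈ p q := fun _ _ h _ => E8_perm h

theorem E8_conn : Conn E₈ := by
  intro p ⟨i, hi⟩ h
  have h3 : p 3 := by
    have a0 : p 0 → p 2 := fun hp => h _ _ hp (by decide)
    have a1 : p 1 → p 3 := fun hp => h _ _ hp (by decide)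
    have a2 : p 2 → p 3 := fun hp => h _ _ hp (by decide)
    have a4 : p 4 → p 3 := fun hp => h _ _ hp (by decide)
    have a5 : p 5 → p 4 := fun hp => h _ _ hp (by decide)
    have a6 : p 6 → p 5 := fun hp => h _ _ hp (by decide)
    have a7 : p 7 → p 6 := fun hp => h _ _ hp (by decide)
    fin_cases i
    · exact a2 (a0 hi)
    · exact a1 hi
    · exact a2 hi
    · exact hi
    · exact a4 hi
    · exact a4 (a5 hi)
    · exact a4 (a5 (a6 hi))
    · exact a4 (a5 (a6 (a7 hi)))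
  have b1 : p 1 := h _ _ h3 (by decide)
  have b2 : p 2 := h _ _ h3 (by decide)
  have b0 : p 0 := h _ _ b2 (by decide)
  have b4 : p 4 := h _ _ h3 (by decide)
  have b5 : p 5 := h _ _ b4 (by decide)
  have b6 : p 6 := h _ _ b5 (by decide)
  have b7 : p 7 := h _ _ b6 (by decide)
  intro j
  fin_cases j
  exacts [b0, b1, b2, h3, b4, b5, b6, b7]

/-! ### `F₄` -/

/-- the entries -/
def f4 (i j : Fin 4) : ℤ := F₄ i j

theorem F4_sq {π : Equiv.Perm (Fin 4)} (h : ZP F₄ π) : π * π = 1 := by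
  have key : ∀ a b c d : Fin 4, ((f4 a b ≠ 0 ∧ f4 b c ≠ 0 ∧ f4 c d ≠ 0) ∧
      (f4 a c = 0 ∧ f4 a d = 0 ∧ f4 b d = 0)) → (a = 0 ∧ b = 1 ∧ c = 2 ∧ d = 3) ∨
        (a = 3 ∧ b = 2 ∧ c = 1 ∧ d = 0) := by
    decide
  have h1 := key (π 0) (π 1) (π 2) (π 3)
    ⟨⟨fun h1 => absurd ((h 0 1).2 h1) (by decide), fun h1 => absurd ((h 1 2).2 h1) (by decide),
      fun h1 => absurd ((h 2 3).2 h1) (by decide)⟩,
      ⟨(h 0 2).1 (by decide), (h 0 3).1 (by decide), (h 1 3).1 (by decide)⟩⟩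
  ext i
  rcases h1 with ⟨h0, h1, h2, h3⟩ | ⟨h0, h1, h2, h3⟩ <;> fin_cases i <;>
    simp [Equiv.Perm.mul_apply, h0, h1, h2, h3]

theorem F4_lab {π : Equiv.Perm (Fin 4)} (h : ZP F₄ π) (hl : LP F₄ π) : π = 1 := by
  have key : ∀ a b c d : Fin 4, ((f4 a b ≠ 0 ∧ f4 b c = -2 ∧ f4 c d ≠ 0) ∧
      (f4 a c = 0 ∧ f4 a d = 0 ∧ f4 b d = 0)) → (a = 0 ∧ b = 1 ∧ c = 2 ∧ d = 3) := by
    decide
  have h1 := key (π 0) (π 1) (π 2) (π 3)
    ⟨⟨fun h1 => absurd ((h 0 1).2 h1) (by decide), (hl 1 2).symm.trans (by decide),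
      fun h1 => absurd ((h 2 3).2 h1) (by decide)⟩,
      ⟨(h 0 2).1 (by decide), (h 0 3).1 (by decide), (h 1 3).1 (by decide)⟩⟩
  obtain ⟨h0, h1, h2, h3⟩ := h1
  ext i
  fin_cases i <;> simp [h0, h1, h2, h3]

theorem F4_noPerm {p : ℕ} (hp : p.Prime) {q : Prop} (hq : p = 2 → q) : NoPerm F₄ p q := by
  intro π ⟨k, hk⟩ hz hl
  by_cases h2 : p = 2
  · exact F4_lab hz (hl (hq h2))
  · exact eq_one_of_sq (F4_sq hz) hp h2 hk

theorem F4_conn : Conn F₄ := by
  intro p ⟨i, hi⟩ h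
  have h1 : p 1 := by
    have a0 : p 0 → p 1 := fun hp => h _ _ hp (by decide)
    have a2 : p 2 → p 1 := fun hp => h _ _ hp (by decide)
    have a3 : p 3 → p 2 := fun hp => h _ _ hp (by decide)
    fin_cases i
    · exact a0 hi
    · exact hi
    · exact a2 hi
    · exact a2 (a3 hi)
  have b0 : p 0 := h _ _ h1 (by decide)
  have b2 : p 2 := h _ _ h1 (by decide)
  have b3 : p 3 := h _ _ b2 (by decide)
  intro j
  fin_cases j
  exacts [b0, h1, b2, b3]

/-! ### `G₂` -/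

theorem G2_sq (π : Equiv.Perm (Fin 2)) : π * π = 1 := by
  revert π
  decide

/-- the entries -/
def g2 (i j : Fin 2) : ℤ := G₂ i j

theorem G2_lab {π : Equiv.Perm (Fin 2)} (hl : LP G₂ π) : π = 1 := by
  have key : ∀ a b : Fin 2, g2 a b = -3 → a = 0 ∧ b = 1 := by decide
  have h1 := key (π 0) (π 1) ((hl 0 1).symm.trans (by decide))
  ext i
  fin_cases i <;> simp [h1.1, h1.2]

theorem G2_noPerm {p : ℕ} (hp : p.Prime) {q : Prop} (hq : p = 2 → q) : NoPerm G₂ p q := by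
  intro π ⟨k, hk⟩ _ hl
  by_cases h2 : p = 2
  · exact G2_lab (hl (hq h2))
  · exact eq_one_of_sq (G2_sq π) hp h2 hk

theorem G2_conn : Conn G₂ := by
  intro p ⟨i, hi⟩ h
  have h0 : p 0 := by
    have a1 : p 1 → p 0 := fun hp => h _ _ hp (by decide)
    fin_cases i
    · exact hi
    · exact a1 hi
  have b1 : p 1 := h _ _ h0 (by decide)
  intro j
  fin_cases j
  exacts [h0, b1]

/-! ### integral inverses -/

/-- a matrix with determinant `d` -/
theorem exists_inv {α : Type*} [Fintype α] [DecidableEq α] (A : Matrix α α ℤ) :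
    ∃ D : α → α → ℤ, ∀ i j, ∑ k, D i k * A j k = if i = j then A.det else 0 := by
  refine ⟨fun i k => A.adjugate k i, fun i j => ?_⟩
  have h := congrFun (congrFun (Matrix.mul_adjugate A) j) i
  rw [Matrix.mul_apply] at h
  rw [Finset.sum_congr rfl fun k _ => mul_comm _ _, h, Matrix.smul_apply, Matrix.one_apply]
  by_cases hij : i = j
  · simp [hij]
  · simp [hij, Ne.symm hij]

/-- the determinant of a transported matrix -/
theorem det_transport {α β : Type*} [Fintype α] [DecidableEq α] [Fintype β] [DecidableEq β]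
    {A : Matrix α α ℤ} {B : Matrix β β ℤ} (e : β ≃ α) (h : ∀ i j, B i j = A (e i) (e j)) :
    B.det = A.det := by
  have : B = A.submatrix e e := by
    ext i j
    exact h i j
  rw [this, Matrix.det_submatrix_equiv_self]

end Vale.Agent.P240.R2.H165.XC
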