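import Vale.Agent.P240.R2.H165.XD
import Vale.Agent.P240.R2.H165.XC
import Vale.Agent.P240.H195.BNFree

/-!
Groups generated by root elements with Chevalley's relations: assembly.
-/

set_option autoImplicit false

namespace Vale.Agent.P240.R2.H165.XC

open Subgroup Vale.Agent.P240.K Vale.Agent.P240.H195 Vale.Agent.P240.R2.H986.X CartanMatrix

universe u v

/-- passage to the abstract relations -/
lemma cs_of_chevRel {ι M N : Type} [AddCommGroup M] [Module ℚ M] [AddCommGroup N] [Module ℚ N]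
    {P : RootPairing ι ℚ M N} [P.IsCrystallographic] {b : P.Base} {F : Type} [Field F]
    {L : Type u} [Group L] {x : ι → F → L} (h : ChevRel P b x) {C : RC ι}
    (hht : C.ht = b.height) (hneg : ∀ i, C.neg i = P.reflectionPerm i i)
    (hs : ∀ i j, C.s i j = P.reflectionPerm i j)
    (hpr : ∀ i j, C.pr j i = P.pairingIn ℤ j i)
    (hc : ∀ i j k, C.cone i j k ↔ ∃ m n : ℕ, 0 < m ∧ 0 < n ∧
      P.root k = m • P.root i + n • P.root j) : CS C x := by
  have hneg' : C.neg = fun i => P.reflectionPerm i i := funext hneg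
  refine ⟨h.add, h.inj, ?_, ?_, h.gen, ?_⟩
  · intro i j hij hij' t u
    have h1 : C.cone i j = fun k => ∃ m n : ℕ, 0 < m ∧ 0 < n ∧
      P.root k = m • P.root i + n • P.root j := by
      funext k
      exact propext (hc i j k)
    rw [h1]
    exact h.comm i j hij (by rwa [hneg] at hij') t u
  · intro i j
    obtain ⟨c, hc1, hc2⟩ := h.refl i j
    refine ⟨c, hc1, fun t u ht => ?_⟩
    rw [hneg', hs, hpr]
    exact hc2 t u ht
  · rw [hht]
    exact h.opp

/-- the index set is not empty -/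
lemma nonempty_of_chevRel {ι M N : Type} [AddCommGroup M] [Module ℚ M] [AddCommGroup N]
    [Module ℚ N] {P : RootPairing ι ℚ M N} [P.IsCrystallographic] {b : P.Base} {F : Type} [Field F]
    {L : Type u} [Group L] {x : ι → F → L} (h : ChevRel P b x)
    (hab : ∃ x y : L, x * y ≠ y * x) : b.support.Nonempty := by
  have : Nonempty ι := by
    by_contra hne
    rw [not_nonempty_iff] at hne
    have h1 : (⊤ : Subgroup L) ≤ ⊥ := by
      rw [← h.gen, gr, closure_le]
      rintro _ ⟨i, -⟩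
      exact (hne.false i).elim
    obtain ⟨a, c, hac⟩ := hab
    have h2 := mem_bot.1 (h1 (mem_top a))
    exact hac (by rw [h2, one_mul, mul_one])
  exact b.support_nonempty

lemma centre_of_nonabelian {L : Type u} [Group L] (hs : IsSimpleGroup L)
    (hab : ∃ x y : L, x * y ≠ y * x) (g : L) (hg : ∀ y, g * y = y * g) : g = 1 := by
  have h1 : g ∈ center L := mem_center_iff.2 fun y => (hg y).symm
  rcases hs.eq_bot_or_eq_top_of_normal (center L) inferInstance with h2 | h2
  · rw [h2, mem_bot] at h1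
    exact h1
  · obtain ⟨a, c, hac⟩ := hab
    have h3 : a ∈ center L := by rw [h2]; exact mem_top a
    exact absurd ((mem_center_iff.1 h3 c).symm) hac

/-- connected diagrams -/
theorem core (X1 : StmtX1) (X3 : StmtX3.{u}) (X4 : StmtX4d.{u}) (X5 : StmtX5.{u})
    {ι M N : Type} [AddCommGroup M] [Module ℚ M] [AddCommGroup N] [Module ℚ N] [Finite ι]
    {P : RootPairing ι ℚ M N} [P.IsCrystallographic] [P.IsReduced] {b : P.Base} {F : Type} [Field F]
    [Finite F] {L : Type u} [Group L] [Finite L] {x : ι → F → L} (hx : ChevRel P b x)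
    (hB : Conn b.cartanMatrix) (hs : IsSimpleGroup L) (hab : ∃ x y : L, x * y ≠ y * x) {r : ℕ}
    [Fact r.Prime] [CharP F r] :
    LieType r L ∧ RigidLie r L ∧ ∀ p : ℕ, p.Prime → p ≠ r → ∀ d : ℕ, ¬ p ∣ d → ¬ p ∣ d.totient →
      (∃ _ : DecidableEq ι, b.cartanMatrix.det = d) →
      NoPerm b.cartanMatrix p (¬ (r = 2 ∨ r = 3)) → FewAut p L := by
  classical
  have hZ := centre_of_nonabelian hs hab
  obtain ⟨C, hht, hneg, hsr, hsimp, hpr, hc⟩ := X1 ι M N P b (nonempty_of_chevRel hx hab) (by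
      intro p ⟨i, hi, hpi⟩ hst j hj
      exact hB (fun k => p k.1) ⟨⟨i, hi⟩, hpi⟩
        (fun i j hi hij => hst i.1 j.1 i.2 j.2 hi hij) ⟨j, hj⟩)
  have hCS := cs_of_chevRel hx hht hneg hsr hpr hc
  refine ⟨⟨hs, hZ, _, _, _, _, X3 ι F L r C x hCS hs hZ⟩, X5 ι F L r C x hCS hs hZ, ?_⟩
  intro p hp hpr' d hd1 hd2 ⟨dec, hdet⟩ hno
  obtain ⟨D, hD⟩ := exists_inv b.cartanMatrix
  have hdet' : b.cartanMatrix.det = d := by
    convert hdet
  refine X4 ι F L r C x hCS hs hZ p hp hpr' ⟨d, hd1, hd2,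
    fun i k => if h : i ∈ b.support ∧ k ∈ b.support then
    D ⟨i, h.1⟩ ⟨k, h.2⟩ else 0, b.support, fun i => (hsimp i).symm, ?_⟩ ?_
  · intro i j hi hj
    have hi' := (hsimp i).1 hi
    have hj' := (hsimp j).1 hj
    have h1 := hD ⟨i, hi'⟩ ⟨j, hj'⟩
    rw [hdet'] at h1
    rw [← Finset.sum_coe_sort]
    have h2 : ∀ k : b.support, (if h : i ∈ b.support ∧ (k : ι) ∈ b.support then
        D ⟨i, h.1⟩ ⟨k, h.2⟩ else 0) * C.pr j k = D ⟨i, hi'⟩ k * b.cartanMatrix ⟨j, hj'⟩ k := by
      intro k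
      rw [dif_pos ⟨hi', k.2⟩, hpr]
      rfl
    rw [Finset.sum_congr rfl fun k _ => h2 k, h1]
    by_cases hij : i = j
    · subst hij
      simp
    · rw [if_neg hij, if_neg fun h3 => hij (congrArg Subtype.val h3)]
  · intro π hk hz hl
    have h1 : NoPerm (fun i j : {i // C.simp i} => C.pr i.1 j.1) p (¬ (r = 2 ∨ r = 3)) := by
      refine NoPerm.transport (Equiv.subtypeEquivRight hsimp) (fun i j => ?_) hno
      rw [hpr]
      rfl
    exact h1 π hk hz fun hq => hl.resolve_left hq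

section
variable {F : Type} [Field F] {L : Type u} [Group L]

/-- **all Chevalley groups** if the characteristic of `F` is `p`, `l` or the characteristic of `𝕜` -/
theorem good_of_lie {p : ℕ} [hp : Fact p.Prime] [Finite L] {𝕜 : Type v} [Field 𝕜] {l : ℕ}
    (h : ∀ (r : ℕ) [Fact r.Prime] [CharP F r], LieType r L ∧ RigidLie r L) [Finite F]
    (hF : ((p : ℕ) : F) = 0 ∨ ((l : ℕ) : F) = 0 ∧ l.Prime ∨
      ∃ r : ℕ, r.Prime ∧ (r : F) = 0 ∧ (r : 𝕜) = 0) :
    GoodFactor 𝕜 p l L := by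
  obtain ⟨r, hrc⟩ := CharP.exists F
  have hr : Fact r.Prime := ⟨(CharP.char_is_prime_or_zero F r).resolve_right
    (CharP.char_ne_zero_of_finite F r)⟩
  have h1 := h r
  have key : ∀ s : ℕ, s.Prime → ((s : ℕ) : F) = 0 → s = r := fun s hs h =>
    ((Nat.prime_dvd_prime_iff_eq hr.out hs).1 ((CharP.cast_eq_zero_iff F r s).1 h)).symm
  by_cases hpr : p = r
  · subst hpr
    exact Or.inr (Or.inl h1.2)
  refine Or.inr (Or.inr (Or.inr (Or.inl ⟨r, hr.out, h1.1.autFree hr.out hp.out hpr, ?_⟩)))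
  rcases hF with hF | ⟨hF, hl⟩ | ⟨s, hs, hF, h𝕜⟩
  · exact absurd (key p hp.out hF) hpr
  · exact Or.inl (key l hl hF).symm
  · have := key s hs hF
    subst this
    exact Or.inr (Or.inl ⟨Ne.symm hpr, h𝕜⟩)

end

end Vale.Agent.P240.R2.H165.XC
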