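import Mathlib.LinearAlgebra.Matrix.Cartan
import Mathlib.LinearAlgebra.RootSystem.CartanMatrix

/-!
Groups generated by root elements that satisfy Chevalley's relations (definitions).
-/

set_option autoImplicit false

namespace Vale.Agent.P240.R2.H165

open Subgroup CartanMatrix

section
variable {ι M F L : Type*} [AddCommGroup M] [Field F] [Group L]

/-- `n_i(t) = x_i(t) x_{-i}(-t⁻¹) x_i(t)`, where `-i = s_i(i)` -/
def nn (s : ι → ι → ι) (x : ι → F → L) (i : ι) (t : F) : L :=
  x i t * x (s i i) (-t⁻¹) * x i t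

/-- the subgroup generated by the elements `x_i(t)` with `p i` -/
def gr (x : ι → F → L) (p : ι → Prop) : Subgroup L := closure {g | ∃ i t, p i ∧ g = x i t}

/-- Chevalley's relations for elements `x_i(t)` that generate `L`, where `i` runs through the (indices
of the) roots `root i` and `t ∈ F`; here `ht i` is the height, `s i j` is the index of `s_i(j)` (so
that `s i i` is the index of `-i`), and `a j i = ⟨j, i^∨⟩`. -/
structure Chev (root : ι → M) (ht : ι → ℤ) (s : ι → ι → ι) (a : ι → ι → ℤ) (x : ι → F → L) :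
    Prop where
  /-- `x_i` is a homomorphism -/
  add : ∀ i t u, x i (t + u) = x i t * x i u
  /-- `x_i` is injective -/
  inj : ∀ i t, x i t = 1 → t = 0
  /-- the commutator `[x_i(t), x_j(u)]` is a product of elements `x_k(v)`, `k = m i + n j` -/
  comm : ∀ i j, i ≠ j → i ≠ s j j → ∀ t u, x i t * x j u * (x i t)⁻¹ * (x j u)⁻¹ ∈
    gr x fun k => ∃ m n : ℕ, 0 < m ∧ 0 < n ∧ root k = m • root i + n • root j
  /-- `n_i(t) x_j(u) n_i(t)⁻¹ = x_k(c t ^ (-⟨j, i^∨⟩) u)`, `k = s_i(j)`, `c = c(i, j) = c(i, -j)`,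
  `c = 1` or `c = -1` -/
  refl : ∀ i j, ∃ c : F, c * c = 1 ∧ ∀ t u : F, t ≠ 0 →
    nn s x i t * x j u * (nn s x i t)⁻¹ = x (s i j) (c * t ^ (-a j i) * u) ∧
    nn s x i t * x (s j j) u * (nn s x i t)⁻¹ = x (s (s i j) (s i j)) (c * t ^ a j i * u)
  /-- the elements `x_i(t)` generate `L` -/
  gen : gr x (fun _ => True) = ⊤
  /-- the intersection of the subgroups `U` and `U⁻` generated by the `x_i(t)` with `i` positive and
  negative, respectively, is trivial -/
  opp : gr x (fun i => 0 < ht i) ⊓ gr x (fun i => ht i < 0) = ⊥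

end

/-- `L` is a Chevalley group over `F`: it is generated by elements `x_i(t)` that satisfy Chevalley's
relations for the roots of an irreducible root system. -/
def IsChev (F : Type) [Field F] (L : Type*) [Group L] : Prop :=
  ∃ (n : ℕ) (ι : Type) (_ : Finite ι) (P : RootPairing ι ℚ (Fin n → ℚ) (Fin n → ℚ))
    (_ : P.IsCrystallographic) (_ : P.IsReduced) (_ : P.IsIrreducible) (b : P.Base)
    (x : ι → F → L), Chev P.root b.height (fun i j => P.reflectionPerm i j) (P.pairingIn ℤ) x

/-- `L` is a Chevalley group over `F` of type `A`: it is generated by elements `x_i(t)` that satisfy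
Chevalley's relations for the roots of a root system with base `e 0, …, e (n - 1)` and Cartan matrix
`A`. -/
def IsChevA {n : ℕ} (A : Matrix (Fin n) (Fin n) ℤ) (F : Type) [Field F] (L : Type*) [Group L] :
    Prop :=
  ∃ (ι : Type) (_ : Finite ι) (P : RootPairing ι ℚ (Fin n → ℚ) (Fin n → ℚ))
    (_ : P.IsCrystallographic) (_ : P.IsReduced) (b : P.Base) (e : Fin n ↪ ι) (x : ι → F → L),
    b.support = Finset.univ.map e ∧ (∀ i j, P.pairingIn ℤ (e i) (e j) = A i j) ∧
    Chev P.root b.height (fun i j => P.reflectionPerm i j) (P.pairingIn ℤ) x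

/-- Chevalley groups over `F` of type `G₂`, `F₄` or `E₈` -/
def IsChevU (F : Type) [Field F] (L : Type*) [Group L] : Prop :=
  IsChevA G₂ F L ∨ IsChevA F₄ F L ∨ IsChevA E₈ F L

/-- Chevalley groups over `F` of exceptional type, except for `E₆` if `p ≤ 3`, and `F₄` and `G₂` in
characteristic `3` if `p = 2` -/
def IsChevFew (p : ℕ) (F : Type) [Field F] (L : Type*) [Group L] : Prop :=
  IsChevA E₈ F L ∨ IsChevA E₇ F L ∨ ((p ≠ 2 ∨ (3 : F) ≠ 0) ∧ IsChevU F L) ∨
    (p ≠ 2 ∧ p ≠ 3 ∧ IsChevA E₆ F L)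

end Vale.Agent.P240.R2.H165
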