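import Vale.Agent.P240.R2.H687.OddDefs

/-!
P240, odd primes, row ON (helper165): the elements of order `p` (odd, invertible in `K`) which are
fixed by `θ` and live in a block of the symplectic group are not normal in the `θ`-fixed part of the
block. Proof: transvections at `θ`-fixed vectors (descent by Dedekind independence).
-/

set_option autoImplicit false
set_option linter.all false

namespace Vale.Agent.P240.R2.H165.ON

open Matrix

universe u

/-- the commutator of the two unipotent products -/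
lemma comm_id {K : Type*} [Field K] {R : Type*} [Ring R] [Algebra K R] {A C : R} (hA : A * A = 0)
    (hC : C * C = 0) (s t : K) :
    ((1 + s • A) * (1 - s • C)) * ((1 + t • A) * (1 - t • C)) -
      ((1 + t • A) * (1 - t • C)) * ((1 + s • A) * (1 - s • C)) =
      -(s * t * (s - t)) • (A * (C * A) + C * (A * C)) := by
  have hA' : ∀ X, A * (A * X) = 0 := fun X => by rw [← mul_assoc, hA, zero_mul]
  have hC' : ∀ X, C * (C * X) = 0 := fun X => by rw [← mul_assoc, hC, zero_mul]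
  simp only [add_mul, mul_add, sub_mul, mul_sub, smul_mul_assoc, mul_smul_comm, smul_smul, one_mul,
    mul_one, mul_assoc, hA, hC, hA', hC', smul_zero, mul_zero, add_zero, zero_add, sub_zero,
    zero_sub]
  module

section
variable {K : Type u} [Field K] {ι : Type} [Fintype ι]

/-- the rank one nilpotent matrix `w ↦ ω(w, v) v` -/
def P (B : Matrix ι ι K) (v : ι → K) : Matrix ι ι K := vecMulVec v (B *ᵥ v)

lemma P_mulVec (B : Matrix ι ι K) (v w : ι → K) :
    P B v *ᵥ w = ((B *ᵥ v) ⬝ᵥ w) • v := by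
  unfold P
  rw [vecMulVec_mulVec]
  ext i
  simp [mul_comm]

lemma P_mul (B : Matrix ι ι K) (v w : ι → K) :
    P B v * P B w = ((B *ᵥ v) ⬝ᵥ w) • vecMulVec v (B *ᵥ w) := by
  unfold P
  rw [vecMulVec_mul_vecMulVec, vecMulVec_smul]

variable [DecidableEq ι]

/-- the properties of the form -/
structure Alt (B : Matrix ι ι K) : Prop where
  tr : Bᵀ = -B
  sq : B * B = -1
  alt : ∀ v, (B *ᵥ v) ⬝ᵥ v = 0

variable {B : Matrix ι ι K}

lemma Alt.sw (hB : Alt B) (v w : ι → K) : (B *ᵥ v) ⬝ᵥ w = -((B *ᵥ w) ⬝ᵥ v) := by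
  have h := hB.alt (v + w)
  rw [mulVec_add, add_dotProduct, dotProduct_add, dotProduct_add, hB.alt v, hB.alt w] at h
  linear_combination h

lemma Alt.inj (hB : Alt B) {v : ι → K} (h : B *ᵥ v = 0) : v = 0 := by
  have h1 : B *ᵥ (B *ᵥ v) = -v := by
    rw [mulVec_mulVec, hB.sq, neg_mulVec, one_mulVec]
  rw [h, mulVec_zero] at h1
  exact neg_eq_zero.1 h1.symm

lemma P_sq (hB : Alt B) (v : ι → K) : P B v * P B v = 0 := by
  rw [P_mul, hB.alt, zero_smul]

lemma P_mul_P_mul (hB : Alt B) (v g : ι → K) :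
    P B v * (P B g * P B v) = -((B *ᵥ v) ⬝ᵥ g) ^ 2 • P B v := by
  rw [← mul_assoc, P_mul, smul_mul_assoc]
  unfold P
  rw [vecMulVec_mul_vecMulVec, vecMulVec_smul, smul_smul, hB.sw g v]
  congr 1
  ring

/-- commuting of the two commutators forces orthogonality -/
lemma orth_of_comm (hB : Alt B) {v g : ι → K} (hv : v ≠ 0) {s t : K} (hs : s ≠ 0) (ht : t ≠ 0)
    (hst : s ≠ t)
    (h : ((1 + s • P B v) * (1 - s • P B g)) * ((1 + t • P B v) * (1 - t • P B g)) =
      ((1 + t • P B v) * (1 - t • P B g)) * ((1 + s • P B v) * (1 - s • P B g))) :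
    (B *ᵥ v) ⬝ᵥ g = 0 := by
  by_contra hc
  have e1 := P_mul_P_mul hB v g
  have e2 := P_mul_P_mul hB g v
  rw [hB.sw g v] at e2
  have k1 := comm_id (P_sq hB v) (P_sq hB g) s t
  rw [sub_eq_zero.2 h, e1, e2] at k1
  have k2 : (s * t * (s - t) * ((B *ᵥ v) ⬝ᵥ g) ^ 2) • (P B v + P B g) = 0 := by
    rw [k1]
    module
  have k3 : P B v + P B g = 0 := by
    refine (smul_eq_zero.1 k2).resolve_left ?_
    exact mul_ne_zero (mul_ne_zero (mul_ne_zero hs ht) (sub_ne_zero.2 hst)) (pow_ne_zero _ hc)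
  have k4 := congrArg (fun X => X *ᵥ g) k3
  simp only [add_mulVec, P_mulVec, zero_mulVec, hB.alt g, zero_smul, add_zero] at k4
  rcases smul_eq_zero.1 k4 with h5 | h5
  · exact hc h5
  · exact hv h5

/-- in the orthogonal case: `C ^ p = 1` forces `C = 1` -/
lemma eq_of_pow (hB : Alt B) {v g : ι → K} {s : K} (hs : s ≠ 0) {p : ℕ} (hp : (p : K) ≠ 0)
    (hc : (B *ᵥ v) ⬝ᵥ g = 0) (h : ((1 + s • P B v) * (1 - s • P B g)) ^ p = 1) :
    P B v = P B g := by
  have z1 : P B v * P B g = 0 := by rw [P_mul, hc, zero_smul]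
  have z2 : P B g * P B v = 0 := by rw [P_mul, hB.sw, hc, neg_zero, zero_smul]
  have q1 : (1 + s • P B v) * (1 - s • P B g) = 1 + s • (P B v - P B g) := by
    simp only [add_mul, mul_sub, mul_one, one_mul, smul_mul_assoc, mul_smul_comm, z1, smul_zero]
    module
  have q2 : (P B v - P B g) * (P B v - P B g) = 0 := by
    rw [sub_mul, mul_sub, mul_sub, P_sq hB, P_sq hB, z1, z2]
    simp
  have q3 : ∀ n : ℕ, (1 + s • (P B v - P B g)) ^ n = 1 + ((n : K) * s) • (P B v - P B g) := by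
    intro n
    induction n with
    | zero => simp
    | succ n ih =>
      rw [pow_succ, ih]
      simp only [add_mul, mul_add, mul_one, one_mul, smul_mul_assoc, mul_smul_comm, q2, smul_zero]
      push_cast
      module
  rw [q1, q3] at h
  have q4 : ((p : K) * s) • (P B v - P B g) = 0 := by
    have := sub_eq_zero.2 h
    rwa [add_sub_cancel_left] at this
  rcases smul_eq_zero.1 q4 with h5 | h5
  · exact absurd h5 (mul_ne_zero hp hs)
  · exact sub_eq_zero.1 h5

/-- `P v = P g` gives `g = v` or `g = -v` -/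
lemma eq_or_neg (hB : Alt B) {v g : ι → K} (hv : v ≠ 0) (h : P B v = P B g) : g = v ∨ g = -v := by
  have hBv : B *ᵥ v ≠ 0 := fun h0 => hv (hB.inj h0)
  obtain ⟨k, hk⟩ := Function.ne_iff.1 hBv
  have e1 : ∀ i j, v i * (B *ᵥ v) j = g i * (B *ᵥ g) j := fun i j => by
    have := congrFun (congrFun h i) j
    simpa [P, vecMulVec_apply] using this
  set α := (B *ᵥ g) k / (B *ᵥ v) k with hα
  have e2 : v = α • g := by
    ext i
    have := e1 i k
    rw [Pi.smul_apply, smul_eq_mul, hα]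
    have hk' : (B *ᵥ v) k ≠ 0 := hk
    field_simp
    rw [this]
    ring
  have e3 : P B v = (α * α) • P B g := by
    conv_lhs => rw [e2]
    unfold P
    rw [mulVec_smul, smul_vecMulVec, vecMulVec_smul, smul_smul]
  have e4 : P B g ≠ 0 := by
    rw [← h]
    exact vecMulVec_ne_zero hv hBv
  have e5 : (α * α - 1) • P B g = 0 := by
    rw [sub_smul, one_smul, ← e3, h, sub_self]
  have e6 : α * α = 1 := sub_eq_zero.1 ((smul_eq_zero.1 e5).resolve_right e4)
  rcases mul_self_eq_one_iff.1 e6 with h1 | h1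
  · left
    rw [e2, h1, one_smul]
  · right
    rw [e2, h1, neg_smul, one_smul, neg_neg]

/-- the conjugation rule -/
lemma conj_P {M : Matrix ι ι K} {μ : K} (h : Mᵀ * B * M = μ • B) (v : ι → K) :
    P B (M *ᵥ v) * M = μ • (M * P B v) := by
  unfold P
  rw [vecMulVec_mul, mul_vecMulVec, ← vecMulVec_smul]
  congr 1
  rw [← mulVec_transpose, mulVec_mulVec, mulVec_mulVec, ← smul_mulVec, ← h]

/-- the symplectic condition for transvections -/
lemma transv_mem (hB : Alt B) (v : ι → K) (s : K) :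
    (1 + s • P B v) * B * (1 + s • P B v)ᵀ = B := by
  have a1 : (B *ᵥ v) ᵥ* B = v := by
    rw [← mulVec_transpose, hB.tr, mulVec_mulVec, neg_mul, hB.sq, neg_neg, one_mulVec]
  have a2 : P B v * B = vecMulVec v v := by
    unfold P
    rw [vecMulVec_mul, a1]
  have a3 : B * (P B v)ᵀ = -vecMulVec v v := by
    unfold P
    rw [transpose_vecMulVec, mul_vecMulVec, mulVec_mulVec, hB.sq, neg_mulVec, one_mulVec,
      neg_vecMulVec]
  have a4 : P B v * B * (P B v)ᵀ = 0 := by
    rw [mul_assoc, a3, mul_neg]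
    unfold P
    rw [vecMulVec_mul_vecMulVec, hB.alt, zero_smul, vecMulVec_zero, neg_zero]
  rw [transpose_add, transpose_one, transpose_smul, add_mul, one_mul, mul_add, mul_one, add_mul,
    smul_mul_assoc, mul_smul_comm, smul_mul_assoc, mul_smul_comm, a4, a2, a3]
  simp

end

section
variable {K : Type u} [Field K] {ι : Type} [Fintype ι] [DecidableEq ι]

/-- the semilinear map -/
def ta (M : Matrix ι ι K) (σ : K ≃+* K) (v : ι → K) : ι → K := M *ᵥ (fun i => σ (v i))

lemma ta_add (M : Matrix ι ι K) (σ : K ≃+* K) (v w : ι → K) :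
    ta M σ (v + w) = ta M σ v + ta M σ w := by
  unfold ta
  rw [← mulVec_add]
  congr 1
  ext i
  simp

lemma ta_zero (M : Matrix ι ι K) (σ : K ≃+* K) : ta M σ 0 = 0 := by
  unfold ta
  have : (fun i : ι => σ ((0 : ι → K) i)) = 0 := by
    ext i
    simp
  rw [this, mulVec_zero]

lemma ta_smul (M : Matrix ι ι K) (σ : K ≃+* K) (a : K) (v : ι → K) :
    ta M σ (a • v) = σ a • ta M σ v := by
  unfold ta
  rw [← mulVec_smul]
  congr 1
  ext i
  simp

lemma ta_sum (M : Matrix ι ι K) (σ : K ≃+* K) (n : ℕ) (F : ℕ → ι → K) :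
    ta M σ (∑ i ∈ Finset.range n, F i) = ∑ i ∈ Finset.range n, ta M σ (F i) := by
  induction n with
  | zero => simp [ta_zero]
  | succ n ih => rw [Finset.sum_range_succ, Finset.sum_range_succ, ta_add, ih]

lemma map_mulVec' (σ : K ≃+* K) (A : Matrix ι ι K) (v : ι → K) :
    (fun i => σ ((A *ᵥ v) i)) = A.map σ *ᵥ (fun i => σ (v i)) := by
  ext i
  simp [mulVec, dotProduct, map_sum]

lemma ta_mulVec (M : Matrix ι ι K) (σ : K ≃+* K) {A : Matrix ι ι K} (h : A * M = M * A.map σ)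
    (v : ι → K) : ta M σ (A *ᵥ v) = A *ᵥ ta M σ v := by
  unfold ta
  rw [map_mulVec', mulVec_mulVec, mulVec_mulVec, h]

lemma ta_iter_smul (M : Matrix ι ι K) (σ : K ≃+* K) (a : K) (v : ι → K) (n : ℕ) :
    (ta M σ)^[n] (a • v) = ((σ : RingAut K) ^ n) a • (ta M σ)^[n] v := by
  induction n with
  | zero => simp
  | succ n ih =>
    rw [Function.iterate_succ_apply', Function.iterate_succ_apply', ih, ta_smul, pow_succ']
    rfl

lemma ta_iter_mulVec (M : Matrix ι ι K) (σ : K ≃+* K) {A : Matrix ι ι K}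
    (h : A * M = M * A.map σ) (v : ι → K) (n : ℕ) :
    (ta M σ)^[n] (A *ᵥ v) = A *ᵥ (ta M σ)^[n] v := by
  induction n with
  | zero => simp
  | succ n ih =>
    rw [Function.iterate_succ_apply', Function.iterate_succ_apply', ih, ta_mulVec M σ h]

/-- descent: the fixed vectors of `τ` in `f V` span `f V` -/
lemma desc {p : ℕ} [hp : Fact p.Prime] {M : Matrix ι ι K} {σ : K ≃+* K}
    (hτ : ∀ v, (ta M σ)^[p] v = v)
    (ord : (M = 1 ∧ σ = RingEquiv.refl K) ∨ ((σ : RingAut K) ^ p = 1 ∧ σ ≠ RingEquiv.refl K))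
    {f : Matrix ι ι K} (hff : f * f = f) (hf : f * M = M * f.map σ) (c : ι → K)
    (H : ∀ v, ta M σ v = v → f *ᵥ v = v → c ⬝ᵥ v = 0) (w : ι → K) : c ⬝ᵥ (f *ᵥ w) = 0 := by
  rcases ord with ⟨h1, h2⟩ | ⟨h1, h2⟩
  · refine H _ ?_ ?_
    · unfold ta
      rw [h1, h2, one_mulVec]
      rfl
    · rw [mulVec_mulVec, hff]
  · have key : ∀ a : K, ∑ i : Fin p, (c ⬝ᵥ (ta M σ)^[(i : ℕ)] (f *ᵥ w)) *
        ((σ : RingAut K) ^ (i : ℕ)) a = 0 := by
      intro a
      have h3 := H (∑ i ∈ Finset.range p, (ta M σ)^[i] (a • (f *ᵥ w))) ?_ ?_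
      · rw [dotProduct_sum, ← Fin.sum_univ_eq_sum_range
          (fun i => c ⬝ᵥ (ta M σ)^[i] (a • (f *ᵥ w)))] at h3
        rw [← h3]
        refine Finset.sum_congr rfl fun i _ => ?_
        rw [ta_iter_smul, dotProduct_smul, smul_eq_mul, mul_comm]
      · rw [ta_sum]
        have h4 : ∀ i, ta M σ ((ta M σ)^[i] (a • (f *ᵥ w))) = (ta M σ)^[i + 1] (a • (f *ᵥ w)) :=
          fun i => (Function.iterate_succ_apply' _ _ _).symm
        simp only [h4]
        have h5 := Finset.sum_range_succ (fun i => (ta M σ)^[i] (a • (f *ᵥ w))) p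
        rw [Finset.sum_range_succ', hτ, Function.iterate_zero, id] at h5
        exact add_right_cancel h5
      · have h6 : ∀ n, f *ᵥ (∑ i ∈ Finset.range n, (ta M σ)^[i] (a • (f *ᵥ w))) =
            ∑ i ∈ Finset.range n, (ta M σ)^[i] (a • (f *ᵥ w)) := by
          intro n
          induction n with
          | zero => simp
          | succ n ih =>
            rw [Finset.sum_range_succ, mulVec_add, ih, ← ta_iter_mulVec M σ hf, mulVec_smul,
              mulVec_mulVec, hff]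
        exact h6 p
    have inj : Function.Injective (fun i : Fin p =>
        ((((σ : RingAut K) ^ (i : ℕ) : RingAut K) : K ≃+* K) : K →* K)) := by
      intro i j hij
      have e1 : (σ : RingAut K) ^ (i : ℕ) = (σ : RingAut K) ^ (j : ℕ) := by
        refine RingEquiv.ext fun x => ?_
        exact DFunLike.congr_fun hij x
      have e2 : orderOf (σ : RingAut K) = p := orderOf_eq_prime h1 h2
      have e3 := pow_injOn_Iio_orderOf (x := (σ : RingAut K))
        (by rw [Set.mem_Iio, e2]; exact i.2) (by rw [Set.mem_Iio, e2]; exact j.2) e1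
      exact Fin.ext e3
    have li := (linearIndependent_monoidHom K K).comp _ inj
    rw [Fintype.linearIndependent_iff] at li
    have h7 := li (fun i => c ⬝ᵥ (ta M σ)^[(i : ℕ)] (f *ᵥ w)) ?_ ⟨0, hp.out.pos⟩
    · simpa using h7
    · ext a
      simpa [Finset.sum_apply] using key a

end

section
variable {K : Type u} [Field K] {m : ℕ}

open Vale.Agent.P240.R2.H687.Odd
open Vale.Agent.P240.R2.H715 (Sy)

lemma alt_J : Alt (J (Fin m) K) where
  tr := J_transpose _ _
  sq := J_squared _ _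
  alt v := by
    have h : J (Fin m) K *ᵥ v = Sum.elim (fun i => -v (Sum.inr i)) (fun i => v (Sum.inl i)) := by
      rw [J, fromBlocks_mulVec]
      ext i
      rcases i with i | i <;> simp [neg_mulVec]
    rw [h]
    simp only [dotProduct, Fintype.sum_sum_type, Sum.elim_inl, Sum.elim_inr]
    rw [← Finset.sum_add_distrib]
    refine Finset.sum_eq_zero fun i _ => ?_
    ring

/-- transvections -/
def T (v : Fin m ⊕ Fin m → K) (s : K) : Sy K m :=
  ⟨1 + s • P (J (Fin m) K) v, SymplecticGroup.mem_iff.2 (transv_mem alt_J v s)⟩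

lemma T_mul_neg (v : Fin m ⊕ Fin m → K) (s : K) : T v s * T v (-s) = 1 := by
  refine Subtype.ext ?_
  change (1 + s • P (J (Fin m) K) v) * (1 + (-s) • P (J (Fin m) K) v) = 1
  simp only [add_mul, mul_add, mul_one, one_mul, smul_mul_assoc, mul_smul_comm, P_sq alt_J,
    smul_zero, add_zero]
  module

lemma T_inv (v : Fin m ⊕ Fin m → K) (s : K) : (T v s)⁻¹ = T v (-s) :=
  (eq_inv_of_mul_eq_one_right (T_mul_neg v s)).symm

lemma mul_T (x : Sy K m) (v : Fin m ⊕ Fin m → K) (s : K) : x * T v s = T (x.1 *ᵥ v) s * x := by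
  refine Subtype.ext ?_
  change x.1 * (1 + s • P (J (Fin m) K) v) = (1 + s • P (J (Fin m) K) (x.1 *ᵥ v)) * x.1
  have h := conj_P (B := J (Fin m) K) (M := x.1) (μ := 1)
    (by rw [one_smul]; exact SymplecticGroup.mem_iff'.1 x.2) v
  rw [one_smul] at h
  rw [mul_add, add_mul, mul_one, one_mul, mul_smul_comm, smul_mul_assoc, h]

lemma commT (x : Sy K m) (v : Fin m ⊕ Fin m → K) (s : K) :
    (T v s * x * (T v s)⁻¹ * x⁻¹).1 =
      (1 + s • P (J (Fin m) K) v) * (1 - s • P (J (Fin m) K) (x.1 *ᵥ v)) := by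
  have h : T v s * x * (T v s)⁻¹ * x⁻¹ = T v s * T (x.1 *ᵥ v) (-s) := by
    rw [T_inv, mul_assoc (T v s) x, mul_T, ← mul_assoc, mul_inv_cancel_right]
  rw [h]
  change (1 + s • P (J (Fin m) K) v) * (1 + (-s) • P (J (Fin m) K) (x.1 *ᵥ v)) = _
  rw [neg_smul, ← sub_eq_add_neg]

variable {p : ℕ} {M : Matrix (Fin m ⊕ Fin m) (Fin m ⊕ Fin m) K} {μ : K} {σ : K ≃+* K}
  {θ : Matrix (Fin m ⊕ Fin m) (Fin m ⊕ Fin m) K ≃+* Matrix (Fin m ⊕ Fin m) (Fin m ⊕ Fin m) K}

lemma rinv (D : Dsc p M μ σ θ) : M * (μ⁻¹ • (-(J (Fin m) K * Mᵀ * J (Fin m) K))) = 1 := by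
  rw [mul_smul_comm, mul_neg, ← mul_assoc, ← mul_assoc, D.sim, smul_mul_assoc, J_squared,
    ← smul_neg, neg_neg, smul_smul, inv_mul_cancel₀ D.ne, one_smul]

lemma cancel (D : Dsc p M μ σ θ) {A C : Matrix (Fin m ⊕ Fin m) (Fin m ⊕ Fin m) K}
    (h : A * M = C * M) : A = C := by
  rw [← mul_one A, ← mul_one C, ← rinv D, ← mul_assoc, ← mul_assoc, h]

lemma sim' (D : Dsc p M μ σ θ) : Mᵀ * J (Fin m) K * M = μ • J (Fin m) K := by
  have h := mul_eq_one_comm.1 (rinv D)
  rw [smul_mul_assoc, neg_mul, mul_assoc (J (Fin m) K * Mᵀ), mul_assoc (J (Fin m) K)] at h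
  have h1 : J (Fin m) K * (Mᵀ * (J (Fin m) K * M)) = -(μ • 1) := by
    have := congrArg (fun X => μ • X) h
    simp only [smul_smul, mul_inv_cancel₀ D.ne, one_smul] at this
    rw [← this, neg_neg]
  have h2 : J (Fin m) K * (J (Fin m) K * (Mᵀ * (J (Fin m) K * M))) = J (Fin m) K * -(μ • 1) := by
    rw [h1]
  rw [← mul_assoc, J_squared, neg_mul, one_mul, mul_neg, mul_smul_comm, mul_one, neg_inj] at h2
  rw [mul_assoc]
  exact h2

/-- the form and `τ` -/
lemma form (D : Dsc p M μ σ θ) (a b : Fin m ⊕ Fin m → K) :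
    (J (Fin m) K *ᵥ ta M σ a) ⬝ᵥ ta M σ b = μ * σ ((J (Fin m) K *ᵥ a) ⬝ᵥ b) := by
  have h1 : σ ((J (Fin m) K *ᵥ a) ⬝ᵥ b) =
      (J (Fin m) K *ᵥ fun i => σ (a i)) ⬝ᵥ fun i => σ (b i) := by
    have := map_mulVec' σ (J (Fin m) K) a
    rw [map_J] at this
    rw [← this]
    simp [dotProduct, map_sum]
  rw [h1]
  unfold ta
  rw [mulVec_mulVec, dotProduct_mulVec, ← mulVec_transpose, mulVec_mulVec, ← mul_assoc, (sim' D),
    smul_mulVec, smul_dotProduct, smul_eq_mul]

/-- the transvection at a fixed vector is fixed by `θ` -/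
lemma fixT (D : Dsc p M μ σ θ) {v : Fin m ⊕ Fin m → K} (hv : ta M σ v = v) {s : K}
    (hs : σ s = μ * s) : θ (jS K m (T v s)) = jS K m (T v s) := by
  change θ (1 + s • P (J (Fin m) K) v) = 1 + s • P (J (Fin m) K) v
  have h1 : ∀ (a : K) A, θ (a • A) = σ a • θ A := by
    intro a A
    refine cancel D ?_
    rw [D.conj, smul_mul_assoc, D.conj, ← mul_smul_comm]
    congr 1
    ext i j
    simp
  have h2 : P (J (Fin m) K) v = μ • θ (P (J (Fin m) K) v) := by
    refine cancel D ?_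
    rw [smul_mul_assoc, D.conj]
    have h3 := conj_P (sim' D) (fun i => σ (v i))
    have h4 : (P (J (Fin m) K) v).map σ = P (J (Fin m) K) (fun i => σ (v i)) := by
      have := map_mulVec' σ (J (Fin m) K) v
      rw [map_J] at this
      unfold P
      rw [← this]
      ext i j
      simp [vecMulVec_apply]
    rw [h4, ← h3]
    congr 2
    exact hv.symm
  rw [map_add, map_one, h1, hs]
  conv_rhs => rw [h2, smul_smul, mul_comm s μ]

lemma mulVec_ext' {A C : Matrix (Fin m ⊕ Fin m) (Fin m ⊕ Fin m) K}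
    (h : ∀ v, A *ᵥ v = C *ᵥ v) : A = C := by
  exact ext_of_mulVec_single fun i => h _

end

open Vale.Agent.P240.R2.H687.Odd Subgroup in
theorem on : StmtON.{u} := by
  intro K _ m p hp hp2 hpK M μ σ θ D ha f hff hstf hθf x hxp hx1 hθx hx2 hx3
  obtain ⟨a, ha1, ha0, ha2⟩ := ha
  have hff' : f * f = f := hff
  have hfM : f * M = M * f.map σ := by rw [← D.conj, hθf]
  have hxM : x.1 * M = M * x.1.map σ := by
    rw [← D.conj]
    exact congrArg (fun X => X * M) hθx.symm
  have hτ : ∀ v, (ta M σ)^[p] v = v := D.pow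
  -- a fixed vector in `f V` moved by `x`
  obtain ⟨v, hv1, hv2, hv3⟩ : ∃ v, ta M σ v = v ∧ f *ᵥ v = v ∧ x.1 *ᵥ v ≠ v := by
    by_contra hcon
    push Not at hcon
    apply hx1
    have h1 : ∀ w, x.1 *ᵥ (f *ᵥ w) = f *ᵥ w := by
      intro w
      ext k
      have h2 := desc hτ D.ord hff' hfM ((x.1 - 1) k) (fun v h3 h4 => by
        have h5 : ((x.1 - 1) *ᵥ v) k = 0 := by
          rw [sub_mulVec, one_mulVec, hcon v h3 h4, sub_self]
          rfl
        exact h5) w
      have h6 : ((x.1 - 1) *ᵥ (f *ᵥ w)) k = 0 := h2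
      rw [sub_mulVec, one_mulVec] at h6
      exact sub_eq_zero.1 h6
    have h7 : x.1 * f = f := mulVec_ext' fun w => by rw [← mulVec_mulVec, h1]
    have h8 : x.1 = 1 := by
      have h9 : x.1 * (1 - f) = 1 - f := hx2
      have h10 : x.1 = x.1 * f + x.1 * (1 - f) := by
        rw [← mul_add, add_sub_cancel, mul_one]
      rw [h10, h7, h9, add_sub_cancel]
    exact Subtype.ext h8
  have hv0 : v ≠ 0 := by
    rintro rfl
    exact hv3 (mulVec_zero _)
  -- the scalar
  obtain ⟨v', hv'1, hv'2⟩ : ∃ v', ta M σ v' = v' ∧ (J (Fin m) K *ᵥ v) ⬝ᵥ v' ≠ 0 := by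
    by_contra hcon
    push Not at hcon
    apply hv0
    refine (alt_J (K := K) (m := m)).inj ?_
    refine dotProduct_eq_zero _ fun w => ?_
    have h2 := desc hτ D.ord (f := 1) (mul_one 1) (by
      rw [one_mul, Matrix.map_one _ (map_zero σ) (map_one σ), mul_one])
      (J (Fin m) K *ᵥ v) (fun v h3 _ => hcon v h3) w
    rwa [one_mulVec] at h2
  set r := (J (Fin m) K *ᵥ v) ⬝ᵥ v' with hr
  have hr1 : r = μ * σ r := by
    have := form D v v'
    rw [hv1, hv'1, ← hr] at this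
    exact this
  have hr2 : σ r⁻¹ = μ * r⁻¹ := by
    have h3 : σ r ≠ 0 := fun h0 => hv'2 (by rw [hr1, h0, mul_zero])
    rw [map_inv₀]
    conv_rhs => rw [hr1]
    field_simp [D.ne]
  have hr3 : σ (a * r⁻¹) = μ * (a * r⁻¹) := by
    rw [map_mul, ha1, hr2]
    ring
  have hr0 : r⁻¹ ≠ 0 := inv_ne_zero hv'2
  -- the two transvections
  have hblk : ∀ s : K, jS K m (T v s) * (1 - f) = 1 - f ∧ (1 - f) * jS K m (T v s) = 1 - f := by
    intro s
    have e1 : (1 - f) * P (J (Fin m) K) v = 0 := by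
      unfold P
      rw [mul_vecMulVec, sub_mulVec, one_mulVec, hv2, sub_self, zero_vecMulVec]
    have e2 : fᵀ * J (Fin m) K = J (Fin m) K * f := by
      have e3 : -(J (Fin m) K * fᵀ * J (Fin m) K) = f := hstf
      conv_rhs => rw [← e3]
      rw [mul_neg, ← mul_assoc, ← mul_assoc, J_squared, neg_mul, neg_mul, neg_neg, one_mul]
    have e4 : P (J (Fin m) K) v * (1 - f) = 0 := by
      unfold P
      rw [vecMulVec_mul, ← mulVec_transpose, transpose_sub, transpose_one, sub_mulVec, one_mulVec,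
        mulVec_mulVec, e2, ← mulVec_mulVec, hv2, sub_self, vecMulVec_zero]
    constructor
    · change (1 + s • P (J (Fin m) K) v) * (1 - f) = 1 - f
      rw [add_mul, one_mul, smul_mul_assoc, e4, smul_zero, add_zero]
    · change (1 - f) * (1 + s • P (J (Fin m) K) v) = 1 - f
      rw [mul_add, mul_one, mul_smul_comm, e1, smul_zero, add_zero]
  by_contra hcon
  push Not at hcon
  have g1 : ∀ s : K, σ s = μ * s → T v s * x * (T v s)⁻¹ * x⁻¹ ∈ zpowers x := by
    intro s hs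
    refine mul_mem (hcon (T v s) (fixT D hv1 hs) (hblk s).1 (hblk s).2) ?_
    exact inv_mem (mem_zpowers x)
  have c1 := g1 _ hr2
  have c2 := g1 _ hr3
  -- commuting
  have d1 : (T v r⁻¹ * x * (T v r⁻¹)⁻¹ * x⁻¹) * (T v (a * r⁻¹) * x * (T v (a * r⁻¹))⁻¹ * x⁻¹) =
      (T v (a * r⁻¹) * x * (T v (a * r⁻¹))⁻¹ * x⁻¹) * (T v r⁻¹ * x * (T v r⁻¹)⁻¹ * x⁻¹) := by
    obtain ⟨k, hk⟩ := mem_zpowers_iff.1 c1
    obtain ⟨l, hl⟩ := mem_zpowers_iff.1 c2
    rw [← hk, ← hl, ← _root_.zpow_add, ← _root_.zpow_add, add_comm]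
  have d2 : (T v r⁻¹ * x * (T v r⁻¹)⁻¹ * x⁻¹).1 *
      (T v (a * r⁻¹) * x * (T v (a * r⁻¹))⁻¹ * x⁻¹).1 =
      (T v (a * r⁻¹) * x * (T v (a * r⁻¹))⁻¹ * x⁻¹).1 *
      (T v r⁻¹ * x * (T v r⁻¹)⁻¹ * x⁻¹).1 := congrArg Subtype.val d1
  rw [commT, commT] at d2
  have hne : r⁻¹ ≠ a * r⁻¹ := by
    intro h0
    apply ha2
    have : a * r⁻¹ * r = r⁻¹ * r := by rw [← h0]
    rwa [mul_assoc, inv_mul_cancel₀ hv'2, mul_one] at this
  have d3 := orth_of_comm alt_J hv0 hr0 (mul_ne_zero ha0 hr0) hne d2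
  have d4 : (T v r⁻¹ * x * (T v r⁻¹)⁻¹ * x⁻¹) ^ p = 1 := by
    obtain ⟨k, hk⟩ := mem_zpowers_iff.1 c1
    rw [← hk, ← zpow_natCast, zpow_comm, zpow_natCast, hxp, _root_.one_zpow]
  have d5 : (T v r⁻¹ * x * (T v r⁻¹)⁻¹ * x⁻¹).1 ^ p = 1 := by
    rw [← SubmonoidClass.coe_pow, d4]
    rfl
  rw [commT] at d5
  have d6 := eq_of_pow alt_J hr0 hpK d3 d5
  rcases eq_or_neg alt_J hv0 d6 with h | h
  · exact hv3 h
  · have e1 : ∀ n : ℕ, (x ^ n).1 *ᵥ v = (-1 : K) ^ n • v := by
      intro n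
      induction n with
      | zero =>
        rw [pow_zero, pow_zero, one_smul]
        exact one_mulVec v
      | succ n ih =>
        rw [pow_succ, pow_succ, Submonoid.coe_mul, ← mulVec_mulVec, h, mulVec_neg, ih, mul_neg,
          mul_one, neg_smul]
    have e2 := e1 p
    rw [hxp, Odd.neg_one_pow (hp.out.odd_of_ne_two hp2), neg_smul, one_smul] at e2
    have e3 : v = -v := by
      rw [← e2]
      exact (one_mulVec v).symm
    exact hv3 (h.trans e3.symm)

end Vale.Agent.P240.R2.H165.ON
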