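import Vale.Agent.P240.R2.H165.XC

/-!
The Cartan matrix of type `E₇`: the elementary divisors.
-/

set_option autoImplicit false

namespace Vale.Agent.P240.R2.H165.XC

open CartanMatrix

/-- the index -/
def e7i : Fin 7 := 6

/-- the coefficients -/
def e7eps : Fin 7 → ℤ := ![0, 1, 0, 0, 1, 0, -1]

/-- the matrix -/
def e7D : Fin 7 → Fin 7 → ℤ :=
  ![![2, 2, 3, 4, 3, 2, 1],
    ![1, 2, 2, 3, 2, 1, 0],
    ![3, 4, 6, 8, 6, 4, 2],
    ![4, 6, 8, 12, 9, 6, 3],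
    ![2, 3, 4, 6, 5, 3, 1],
    ![2, 3, 4, 6, 5, 4, 2],
    ![2, 3, 4, 6, 5, 4, 3]]

theorem e7_mul : ∀ i j : Fin 7, ∑ k, e7D i k * E₇ j k =
    (if i = j then 1 else 0) - (if j = e7i then e7eps i else 0) := by
  decide

theorem e7_eps : e7eps e7i = -1 := by decide

theorem e7_odd : ∀ j : Fin 7, ∃ k : Fin 7, Odd (E₇ k j) := by
  decide

end Vale.Agent.P240.R2.H165.XC
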