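import Vale.Agent.P240.R2.H165.XH
import Vale.Agent.P240.R2.H401.X7e
import Vale.Agent.P240.R2.H684.X3
import Vale.Agent.P240.R2.H387.X5F
import Vale.Agent.P240.R2.H986.X.X4
import Vale.Agent.P240.R2.H164.EX2

/-!
Chevalley groups: main theorems.
-/

set_option autoImplicit false

namespace Vale.Agent.P240.R2.H165

open Subgroup Vale.Agent.P240.K Vale.Agent.P240.H195 CartanMatrix
open Vale.Agent.P240.R2.H165.XC

universe u v

open Vale.Agent.P240.R2.H986.X in
theorem stmtX4d : StmtX4d.{u} := by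
  intro ι _ F _ _ L _ _ r _ _ C x hx hs hZ p hp hpr ⟨d, hd1, hd2, D, Δ, h1, h2⟩ hπ
  exact H164.EX.stmtX4'_of H684.XB.stmtX3 stmtX4a stmtX4b ι F L r C x hx hs hZ d
    ⟨D, Δ, h1, h2⟩ p hp hpr (hp.coprime_iff_not_dvd.2 hd1) (hp.coprime_iff_not_dvd.2 hd2) hπ

section
variable {n : ℕ} {A : Matrix (Fin n) (Fin n) ℤ} {F : Type} [Field F] {L : Type u} [Group L]

/-- irreducible root systems -/
theorem IsChev.main [Finite F] [Finite L] (h : IsChev F L) (hs : IsSimpleGroup L)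
    (hab : ∃ x y : L, x * y ≠ y * x) (r : ℕ) [Fact r.Prime] [CharP F r] :
    LieType r L ∧ RigidLie r L := by
  obtain ⟨n, ι, _, P, _, _, _, b, x, hx⟩ := h
  have h1 := core H281X1.stmtX1 H684.XB.stmtX3 stmtX4d H387.X5.stmtX5 hx.chevRel
    (fun p ⟨i, hi⟩ hp j => b.induction_on_cartanMatrix p hi hp) hs hab (r := r)
  exact ⟨h1.1, h1.2.1⟩

/-- **groups of Lie type** -/
theorem IsChev.lie [Finite F] [Finite L] (h : IsChev F L) (hs : IsSimpleGroup L)
    (hab : ∃ x y : L, x * y ≠ y * x) (r : ℕ) [Fact r.Prime] [CharP F r] : LieType r L :=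
  (h.main hs hab r).1

/-- **rigid** -/
theorem IsChev.rigid [Finite F] [Finite L] (h : IsChev F L) (hs : IsSimpleGroup L)
    (hab : ∃ x y : L, x * y ≠ y * x) (r : ℕ) [Fact r.Prime] [CharP F r] : RigidLie r L :=
  (h.main hs hab r).2

/-- given Cartan matrices -/
theorem IsChevA.main [Finite F] [Finite L] (h : IsChevA A F L) (hA : Conn A)
    (hs : IsSimpleGroup L) (hab : ∃ x y : L, x * y ≠ y * x) {r : ℕ} [Fact r.Prime] [CharP F r] :
    LieType r L ∧ RigidLie r L ∧ ∀ p : ℕ, p.Prime → p ≠ r → ∀ d : ℕ, ¬ p ∣ d → ¬ p ∣ d.totient →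
      A.det = d → NoPerm A p (¬ (r = 2 ∨ r = 3)) → FewAut p L := by
  classical
  obtain ⟨ι, _, P, _, _, b, e, x, hb, he, hx⟩ := h
  have h0 : ∀ i, e i ∈ b.support := fun i => by
    rw [hb, Finset.mem_map]
    exact ⟨i, Finset.mem_univ i, rfl⟩
  let f : Fin n → b.support := fun i => ⟨e i, h0 i⟩
  have hf : Function.Bijective f := by
    constructor
    · intro i j hij
      exact e.injective (congrArg Subtype.val hij)
    · rintro ⟨k, hk⟩
      have hk' := hk
      rw [hb, Finset.mem_map] at hk'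
      obtain ⟨i, -, hi⟩ := hk'
      exact ⟨i, Subtype.ext hi⟩
  let e' : b.support ≃ Fin n := (Equiv.ofBijective f hf).symm
  have he' : ∀ i j, b.cartanMatrix i j = A (e' i) (e' j) := by
    intro i j
    obtain ⟨i, rfl⟩ := e'.symm.surjective i
    obtain ⟨j, rfl⟩ := e'.symm.surjective j
    rw [e'.apply_symm_apply, e'.apply_symm_apply, ← he]
    rfl
  have h1 := core H281X1.stmtX1 H684.XB.stmtX3 stmtX4d H387.X5.stmtX5 hx.chevRel
    (hA.transport e' he') hs hab (r := r)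
  exact ⟨h1.1, h1.2.1, fun p hp hpr d hd1 hd2 hdet hno => h1.2.2 p hp hpr d hd1 hd2
    ⟨inferInstance, by rw [← hdet]; exact det_transport e' he'⟩ (hno.transport e' he')⟩

/-- **exceptional groups**, groups of Lie type -/
theorem IsChevFew.main [Finite F] [Finite L] {p : ℕ} (h : IsChevFew p F L) (hs : IsSimpleGroup L)
    (hab : ∃ x y : L, x * y ≠ y * x) (r : ℕ) [Fact r.Prime] [CharP F r] :
    LieType r L ∧ RigidLie r L := by
  rcases h with h | h | ⟨-, h | h | h⟩ | ⟨-, -, h⟩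
  · have h1 := h.main E8_conn hs hab (r := r)
    exact ⟨h1.1, h1.2.1⟩
  · have h1 := h.main E7_conn hs hab (r := r)
    exact ⟨h1.1, h1.2.1⟩
  · have h1 := h.main G2_conn hs hab (r := r)
    exact ⟨h1.1, h1.2.1⟩
  · have h1 := h.main F4_conn hs hab (r := r)
    exact ⟨h1.1, h1.2.1⟩
  · have h1 := h.main E8_conn hs hab (r := r)
    exact ⟨h1.1, h1.2.1⟩
  · have h1 := h.main E6_conn hs hab (r := r)
    exact ⟨h1.1, h1.2.1⟩

/-- **few automorphisms** -/
theorem IsChevFew.few [Finite F] [Finite L] {p : ℕ} (h : IsChevFew p F L)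
    (hs : IsSimpleGroup L) (hab : ∃ x y : L, x * y ≠ y * x) (hp : p.Prime) {r : ℕ}
    [hr : Fact r.Prime] [CharP F r] (hpr : p ≠ r) : FewAut p L := by
  have h1 : ¬ p ∣ 1 := hp.one_lt.ne' ∘ Nat.dvd_one.1
  have h2 : p ≠ 2 → ¬ p ∣ 2 := fun h h' => h ((Nat.prime_dvd_prime_iff_eq hp Nat.prime_two).1 h')
  have h3 : p ≠ 3 → ¬ p ∣ 3 := fun h h' => h ((Nat.prime_dvd_prime_iff_eq hp Nat.prime_three).1 h')
  have t1 : Nat.totient 1 = 1 := by decide
  have t2 : Nat.totient 2 = 1 := by decide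
  have t3 : Nat.totient 3 = 2 := by decide
  have hq : (p ≠ 2 ∨ (3 : F) ≠ 0) → p = 2 → ¬ (r = 2 ∨ r = 3) := by
    rintro h hp2 (h' | h')
    · exact hpr (hp2.trans h'.symm)
    · rcases h with h | h
      · exact h hp2
      · subst h'
        exact h (by exact_mod_cast CharP.cast_eq_zero F 3)
  have h8 : IsChevA E₈ F L → FewAut p L := fun h =>
    (h.main E8_conn hs hab (r := r)).2.2 p hp hpr 1 h1
      (by rw [t1]; exact h1) E₈_det (E8_noPerm p _)
  rcases h with h | h | ⟨hF, h | h | h⟩ | ⟨hp2, hp3, h⟩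
  · exact h8 h
  · by_cases hp2 : p = 2
    · subst hp2
      refine e7_few H401.X7.stmtX7 h hs hab fun h2 => hpr ?_
      have h4 : r ∣ 2 := (CharP.cast_eq_zero_iff F r 2).1 (by exact_mod_cast h2)
      exact ((Nat.prime_dvd_prime_iff_eq hr.out Nat.prime_two).1 h4).symm
    · exact (h.main E7_conn hs hab (r := r)).2.2 p hp hpr 2 (h2 hp2)
        (by rw [t2]; exact h1) E₇_det (E7_noPerm p _)
  · exact (h.main G2_conn hs hab (r := r)).2.2 p hp hpr 1 h1
      (by rw [t1]; exact h1) G₂_det (G2_noPerm hp (hq hF))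
  · exact (h.main F4_conn hs hab (r := r)).2.2 p hp hpr 1 h1
      (by rw [t1]; exact h1) F₄_det (F4_noPerm hp (hq hF))
  · exact h8 h
  · exact (h.main E6_conn hs hab (r := r)).2.2 p hp hpr 3 (h3 hp3)
      (by rw [t3]; exact h2 hp2) E₆_det (E6_noPerm hp hp2 _)

/-- few automorphisms for the types `G₂`, `F₄`, `E₈` -/
theorem IsChevU.few [Finite F] [Finite L] (h : IsChevU F L) (hs : IsSimpleGroup L)
    (hab : ∃ x y : L, x * y ≠ y * x) {r : ℕ} [hr : Fact r.Prime] [CharP F r] (h5 : 5 ≤ r) {p : ℕ}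
    (hp : p.Prime) (hpr : p ≠ r) : FewAut p L := by
  refine IsChevFew.few (p := p) (Or.inr (Or.inr (Or.inl ⟨Or.inr fun h3 => ?_, h⟩))) hs hab hp hpr
  have h6 : r ∣ 3 := (CharP.cast_eq_zero_iff F r 3).1 (by exact_mod_cast h3)
  have := Nat.le_of_dvd (by norm_num) h6
  omega

/-- **exceptional groups with few automorphisms** are good for every field `𝕜` and every `l` -/
theorem IsChevFew.good [Finite F] [Finite L] {p : ℕ} [hp : Fact p.Prime]
    (h : IsChevFew p F L) (hs : IsSimpleGroup L) (hab : ∃ x y : L, x * y ≠ y * x) (𝕜 : Type v)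
    [Field 𝕜] (l : ℕ) : GoodFactor 𝕜 p l L := by
  obtain ⟨r, hrc⟩ := CharP.exists F
  have hr : Fact r.Prime := ⟨(CharP.char_is_prime_or_zero F r).resolve_right
    (CharP.char_ne_zero_of_finite F r)⟩
  have h1 := h.main hs hab r
  by_cases hpr : p = r
  · subst hpr
    exact Or.inr (Or.inl h1.2)
  · exact Or.inr (Or.inr (Or.inr (Or.inl ⟨r, hr.out, h1.1.autFree hr.out hp.out hpr,
      Or.inr (Or.inr (Or.inl (h.few hs hab hp.out hpr)))⟩)))

/-- **Chevalley groups** if the characteristic of `F` is `p`, `l` or the characteristic of `𝕜` -/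
theorem IsChev.good [Finite F] [Finite L] {p : ℕ} [hp : Fact p.Prime]
    (h : IsChev F L) (hs : IsSimpleGroup L) (hab : ∃ x y : L, x * y ≠ y * x) {𝕜 : Type v}
    [Field 𝕜] {l : ℕ} (hF : ((p : ℕ) : F) = 0 ∨ ((l : ℕ) : F) = 0 ∧ l.Prime ∨
      ∃ r : ℕ, r.Prime ∧ (r : F) = 0 ∧ (r : 𝕜) = 0) : GoodFactor 𝕜 p l L :=
  good_of_lie (fun r _ _ => h.main hs hab r) hF

/-- the case `p = 2` -/
theorem IsChev.good_two [Fact (Nat.Prime 2)] [Finite F] [Finite L] (h : IsChev F L)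
    (hs : IsSimpleGroup L) (hab : ∃ x y : L, x * y ≠ y * x) {𝕜 : Type v} [Field 𝕜]
    (h3 : (3 : 𝕜) = 0) (hF : (30 : F) = 0) : GoodFactor 𝕜 2 5 L := by
  have h1 : (2 : F) = 0 ∨ (3 : F) = 0 ∨ (5 : F) = 0 := by
    have h2 : (2 : F) * (3 * 5) = 0 := by
      have h3 : (2 : F) * (3 * 5) = 30 := by norm_num
      rw [h3, hF]
    rcases mul_eq_zero.1 h2 with h2 | h2
    · exact Or.inl h2
    · exact Or.inr (mul_eq_zero.1 h2)
  refine h.good hs hab ?_
  rcases h1 with h1 | h1 | h1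
  · exact Or.inl (by exact_mod_cast h1)
  · exact Or.inr (Or.inr ⟨3, Nat.prime_three, by exact_mod_cast h1, by exact_mod_cast h3⟩)
  · exact Or.inr (Or.inl ⟨by exact_mod_cast h1, Nat.prime_five⟩)

end

end Vale.Agent.P240.R2.H165
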