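import Vale.Agent.P240.R2.H165.XA
import Vale.Agent.P240.R2.H165.ChevDefs
import Vale.Agent.P240.R2.H281.X1

/-!
Chevalley groups with a given Cartan matrix: data.
-/

set_option autoImplicit false

namespace Vale.Agent.P240.R2.H165

open Subgroup Vale.Agent.P240.K Vale.Agent.P240.H195 CartanMatrix
open Vale.Agent.P240.R2.H165.XC
open Vale.Agent.P240.R2.H986.X (ChevRel RC CS)

universe u v

/-- passage to the relations of `986` -/
lemma Chev.chevRel {ι M N : Type} [AddCommGroup M] [Module ℚ M] [AddCommGroup N] [Module ℚ N]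
    {P : RootPairing ι ℚ M N} [P.IsCrystallographic] {b : P.Base} {F : Type} [Field F]
    {L : Type u} [Group L] {x : ι → F → L}
    (h : Chev P.root b.height (fun i j => P.reflectionPerm i j) (P.pairingIn ℤ) x) :
    ChevRel P b x :=
  ⟨h.add, h.inj, h.comm, h.refl, h.gen, h.opp⟩

section
variable {n : ℕ} {A : Matrix (Fin n) (Fin n) ℤ} {F : Type} [Field F] {L : Type u} [Group L]

/-- the abstract relations, and the Cartan matrix -/
theorem IsChevA.data (h : IsChevA A F L) (hA : Conn A) (hab : ∃ x y : L, x * y ≠ y * x) :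
    ∃ (ι : Type) (_ : Finite ι) (C : RC ι) (x : ι → F → L) (e : Fin n ≃ {i // C.simp i}),
      CS C x ∧ ∀ i j, C.pr (e i).1 (e j).1 = A i j := by
  classical
  obtain ⟨ι, _, P, _, _, b, e, x, hb, he, hx⟩ := h
  have h0 : ∀ i, e i ∈ b.support := fun i => by
    rw [hb, Finset.mem_map]
    exact ⟨i, Finset.mem_univ i, rfl⟩
  let f : Fin n → b.support := fun i => ⟨e i, h0 i⟩
  have hf : Function.Bijective f := by
    constructor
    · intro i j hij
      exact e.injective (congrArg Subtype.val hij)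
    · rintro ⟨k, hk⟩
      have hk' := hk
      rw [hb, Finset.mem_map] at hk'
      obtain ⟨i, -, hi⟩ := hk'
      exact ⟨i, Subtype.ext hi⟩
  have hf' : ∀ i j, b.cartanMatrix (f i) (f j) = A i j := fun i j => by
    rw [← he]
    rfl
  have hB : Conn b.cartanMatrix := hA.transport (Equiv.ofBijective f hf).symm (by
    intro i j
    obtain ⟨i, rfl⟩ := hf.2 i
    obtain ⟨j, rfl⟩ := hf.2 j
    have h1 : ∀ k, (Equiv.ofBijective f hf).symm (f k) = k := fun k =>
      (Equiv.ofBijective f hf).symm_apply_apply k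
    rw [h1, h1, hf'])
  obtain ⟨C, hht, hneg, hsr, hsimp, hpr, hc⟩ := H281X1.stmtX1 ι _ _ P b
    (nonempty_of_chevRel hx.chevRel hab) (by
      intro p ⟨i, hi, hpi⟩ hst j hj
      exact hB (fun k => p k.1) ⟨⟨i, hi⟩, hpi⟩
        (fun i j hi hij => hst i.1 j.1 i.2 j.2 hi hij) ⟨j, hj⟩)
  refine ⟨ι, inferInstance, C, x, (Equiv.ofBijective f hf).trans
    (Equiv.subtypeEquivRight fun i => (hsimp i).symm), cs_of_chevRel hx.chevRel hht hneg hsr hpr hc,
    fun i j => ?_⟩
  rw [hpr]
  exact he i j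

/-- matrix identities -/
theorem exists_D {ι : Type} [Finite ι] {C : RC ι} (e : Fin n ≃ {i // C.simp i})
    (he : ∀ i j, C.pr (e i).1 (e j).1 = A i j) {D₀ R : Fin n → Fin n → ℤ}
    (h : ∀ i j, ∑ k, D₀ i k * A j k = R i j) :
    ∃ D : ι → ι → ℤ, ∃ Δ : Finset ι, (∀ i, i ∈ Δ ↔ C.simp i) ∧
      ∀ i j : Fin n, ∑ k ∈ Δ, D (e i).1 k * C.pr (e j).1 k = R i j := by
  classical
  have : Fintype ι := Fintype.ofFinite ι
  refine ⟨fun i k => if h : C.simp i ∧ C.simp k then D₀ (e.symm ⟨i, h.1⟩) (e.symm ⟨k, h.2⟩) else 0,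
    Finset.univ.filter fun i => C.simp i, fun i => by simp, fun i j => ?_⟩
  have h1 : (Finset.univ.filter fun i => C.simp i) =
      Finset.univ.map (e.toEmbedding.trans (Function.Embedding.subtype _)) := by
    ext k
    simp only [Finset.mem_filter, Finset.mem_univ, true_and, Finset.mem_map,
      Function.Embedding.trans_apply, Function.Embedding.subtype_apply, Equiv.coe_toEmbedding]
    constructor
    · intro hk
      exact ⟨e.symm ⟨k, hk⟩, by rw [e.apply_symm_apply]⟩
    · rintro ⟨a, rfl⟩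
      exact (e a).2
  rw [h1, Finset.sum_map, ← h i j]
  refine Finset.sum_congr rfl fun k _ => ?_
  have h2 : ∀ a : Fin n, (e.toEmbedding.trans (Function.Embedding.subtype _)) a = (e a).1 :=
    fun _ => rfl
  have h3 : ∀ a : Fin n, ∀ h : C.simp (e a).1, e.symm ⟨(e a).1, h⟩ = a := fun a h =>
    e.symm_apply_apply a
  rw [h2, he]
  refine congrArg (· * A j k) ?_
  change (if h : C.simp (e i).1 ∧ C.simp (e k).1 then
    D₀ (e.symm ⟨(e i).1, h.1⟩) (e.symm ⟨(e k).1, h.2⟩) else 0) = D₀ i k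
  rw [dif_pos ⟨(e i).2, (e k).2⟩, h3, h3]

end

end Vale.Agent.P240.R2.H165
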