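import Vale.Agent.P240.R2.H165.XG
import Vale.Agent.P240.R2.H165.XE7
import Vale.Agent.P240.R2.H401.X7Defs

/-!
Chevalley groups of type `E₇` in odd characteristic, the prime `2`.
-/

set_option autoImplicit false

namespace Vale.Agent.P240.R2.H165

open Subgroup Vale.Agent.P240.K Vale.Agent.P240.H195 CartanMatrix
open Vale.Agent.P240.R2.H165.XC
open Vale.Agent.P240.R2.H986.X (ChevRel RC CS)

universe u v

section
variable {F : Type} [Field F] {L : Type u} [Group L]

/-- type `E₇`, the prime `2` -/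
theorem e7_few (X7 : H401.X7.StmtX7.{u}) [Finite F] [Finite L] (h : IsChevA E₇ F L)
    (hs : IsSimpleGroup L) (hab : ∃ x y : L, x * y ≠ y * x) (h2 : (2 : F) ≠ 0) : FewAut 2 L := by
  classical
  obtain ⟨r, hrc⟩ := CharP.exists F
  have hr : Fact r.Prime := ⟨(CharP.char_is_prime_or_zero F r).resolve_right
    (CharP.char_ne_zero_of_finite F r)⟩
  have hZ := centre_of_nonabelian hs hab
  obtain ⟨ι, _, C, x, e, hCS, he⟩ := h.data E7_conn hab
  obtain ⟨D, Δ, hΔ, hD⟩ := exists_D e he e7_mul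
  have hsur : ∀ i, C.simp i → ∃ a, (e a).1 = i := fun i hi =>
    ⟨e.symm ⟨i, hi⟩, by rw [e.apply_symm_apply]⟩
  have hinj : ∀ a b, (e a).1 = (e b).1 ↔ a = b := fun a b =>
    ⟨fun h => e.injective (Subtype.ext h), fun h => by rw [h]⟩
  have heps : ∀ a, (if h : C.simp (e a).1 then e7eps (e.symm ⟨(e a).1, h⟩) else 0) = e7eps a := by
    intro a
    rw [dif_pos (e a).2]
    exact congrArg e7eps (e.symm_apply_apply a)
  refine X7 ι F L r C x hCS hs hZ h2 ⟨D, Δ, (e e7i).1,
    fun i => if h : C.simp i then e7eps (e.symm ⟨i, h⟩) else 0, hΔ, (e e7i).2, ?_, ?_⟩ ?_ ?_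
  · exact (heps e7i).trans e7_eps
  · intro i j hi hj
    obtain ⟨a, rfl⟩ := hsur i hi
    obtain ⟨b, rfl⟩ := hsur j hj
    rw [hD a b]
    have h1 := heps a
    congr 1
    · by_cases hab' : a = b
      · rw [if_pos hab', if_pos (by rw [hab'])]
      · rw [if_neg hab', if_neg fun h => hab' ((hinj a b).1 h)]
    · by_cases hb : b = e7i
      · rw [if_pos hb, if_pos (by rw [hb])]
        exact h1.symm
      · rw [if_neg hb, if_neg fun h => hb ((hinj b e7i).1 h)]
  · intro j hj
    obtain ⟨b, rfl⟩ := hsur j hj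
    obtain ⟨k, hk⟩ := e7_odd b
    exact ⟨(e k).1, by rw [he]; exact hk⟩
  · intro π hπ
    let σ : Equiv.Perm (Fin 7) := (e.trans π).trans e.symm
    have hσ : σ = 1 := by
      refine E7_perm fun i j => ?_
      have h1 := hπ (e i) (e j)
      rw [he] at h1
      have h3 : ∀ a, e (σ a) = π (e a) := fun a => e.apply_symm_apply _
      rw [← h3, ← h3, he] at h1
      exact h1
    ext i
    obtain ⟨a, rfl⟩ := e.surjective i
    have h3 : e (σ a) = π (e a) := e.apply_symm_apply _
    rw [← h3, hσ]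
    rfl

end

end Vale.Agent.P240.R2.H165
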